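import Mathlib
import Vale.Agent.P256.SMain

namespace Vale.Agent.Results.P256.A_full

open Vale.Agent.P256

/-- The projected Lax conjecture is false: some hyperbolicity cone is not a spectrahedral shadow. -/
theorem result : ∃ (n : ℕ) (p : MvPolynomial (Fin n) ℝ) (e : Fin n → ℝ),
    IsHyperbolic p e ∧ ¬ IsShadow (hypCone p e) :=
  proj_lax_false

end Vale.Agent.Results.P256.A_full
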