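import Mathlib
import Vale.Agent.P256.GMain

namespace Vale.Agent.Results.P256.B_genLax

open Vale.Agent.P256

/-- The generalized Lax conjecture is false: some hyperbolicity cone is not a spectrahedron. -/
theorem result : ∃ (n : ℕ) (p : MvPolynomial (Fin n) ℝ) (e : Fin n → ℝ),
    IsHyperbolic p e ∧ ¬ IsSpectrahedron (hypCone p e) :=
  gen_lax_false

end Vale.Agent.Results.P256.B_genLax
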